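import Vale.Agent.P074.Main

namespace Vale.Agent.Results.P074.Sharp

open Vale.Agent.P074

theorem result (d : ℕ) (hd : 2 ≤ d) :
    IsGreatest {α : ℝ | Admissible (EuclideanSpace ℝ (Fin d)) α} (1 / 3) := by
  obtain ⟨n, rfl⟩ : ∃ n, d = n + 2 := ⟨d - 2, by omega⟩
  exact ⟨upper (by simp), fun α h => lower h⟩

end Vale.Agent.Results.P074.Sharp
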